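import Vale.Agent.P088.R2.H593.V.RG
import Vale.Agent.P088.H27.JG2
import Vale.Agent.P088.H501.A12
import Vale.Agent.P088.H776.A3
import Vale.Agent.P088.H102.Neu
import Vale.Agent.P088.H833.Phi
import Vale.Agent.P088.H72.Norm
import Vale.Agent.P088.H91.UCoo
import Vale.Agent.P088.H292.UPush
import Vale.Agent.P088.H535.USmk

/-!
# P088, two arbitrary pairs near the flat one: `RowCG → RowRG`, old rows plugged in
-/

open MeasureTheory Set
open scoped ContDiff Matrix

noncomputable section

namespace Vale.Agent.P088.PJ.H593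

open Vale.Agent.P088.LR Vale.Agent.P088.LR.U Vale.Agent.P088.LR.CF

/-- `RowCG → RowRG`. -/
theorem rg_of_cg : RowCG → RowRG :=
  rowRG Vale.Agent.P088.H776.rowA3 H72.norm1
    (H27.rowG2U H501.rowA1 H501.rowA2 Vale.Agent.P088.H776.rowA3 Vale.Agent.P088.H102.neu)
    U.H91.coo Vale.Agent.P088.H833.phi Vale.Agent.P088.H292.UP.puu Vale.Agent.P088.H535.smk

end Vale.Agent.P088.PJ.H593
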